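import Vale.Agent.P329.H962.Rows

namespace Vale.Agent.P329.H957

open Vale.Agent.P329.H962
open Filter

variable {α B A : Type} {p : ℕ}

theorem nc_take (w : List α → ZMod p) : ∀ (k : ℕ) (X : List α), k ≤ X.length →
    nc w (X.take k) (X.drop k) =
      ∑ i ∈ Finset.range k, if w (X.drop i) = 0 then 0 else 1 := by
  intro k
  induction k with
  | zero => intro X _; simp [nc]
  | succ k ih =>
    intro X hX
    cases X with
    | nil => simp at hX
    | cons a Y =>
      have hY : k ≤ Y.length := by simpa using hX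
      rw [List.take_succ_cons, List.drop_succ_cons, nc, ih Y hY, Finset.sum_range_succ',
        List.take_append_drop]
      simp

theorem near_shift {β : List α → B} {m : ℕ → B} {J : ℕ} {X : List α} (t : ℕ)
    (h : Near β m (t + J) X) : Near β (fun i => m (t + i)) J (X.drop t) := by
  refine ⟨by rw [List.length_drop]; have := h.1; omega, fun i hi => ?_⟩
  rw [List.drop_drop]
  exact h.2 (t + i) (by omega)

theorem sh_iter {M : Set (ℕ → B)} (hM : ∀ m ∈ M, sh m ∈ M) : ∀ (t : ℕ) (m : ℕ → B), m ∈ M →
    (fun i => m (t + i)) ∈ M := by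
  intro t
  induction t with
  | zero =>
    intro m hm
    simpa using hm
  | succ t ih =>
    intro m hm
    have h := hM _ (ih m hm)
    have e : sh (fun i => m (t + i)) = fun i => m (t + 1 + i) := by
      funext i
      change m (t + (i + 1)) = m (t + 1 + i)
      congr 1
      omega
    rwa [e] at h

theorem near_mono {β : List α → B} {m : ℕ → B} {J K : ℕ} {X : List α} (hJK : J ≤ K)
    (h : Near β m K X) : Near β m J X :=
  ⟨hJK.trans h.1, fun i hi => h.2 i (by omega)⟩

/-- many cuts in long windows -/
theorem many {w : List α → ZMod p} {β : List α → B} {M : Set (ℕ → B)} {J0 : ℕ}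
    (hM : ∀ m ∈ M, sh m ∈ M)
    (hJ : ∀ m ∈ M, ∀ X, Near β m J0 X → ∃ i < J0, w (X.drop i) ≠ 0) {m : ℕ → B} (hm : m ∈ M) :
    ∀ (t : ℕ) (X : List α), Near β m (t * J0) X →
      t ≤ ∑ i ∈ Finset.range (t * J0), if w (X.drop i) = 0 then 0 else 1 := by
  intro t
  induction t with
  | zero => intro X _; exact Nat.zero_le _
  | succ t ih =>
    intro X hX
    rw [Nat.succ_mul] at hX ⊢
    rw [Finset.sum_range_add]
    have h1 := ih X (near_mono (Nat.le_add_right _ _) hX)
    obtain ⟨i, hi, hw⟩ := hJ _ (sh_iter hM (t * J0) m hm) _ (near_shift (t * J0) hX)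
    have h2 : 1 ≤ ∑ i ∈ Finset.range J0, if w (X.drop (t * J0 + i)) = 0 then 0 else 1 := by
      refine le_trans ?_ (Finset.single_le_sum (f := fun i =>
        if w (X.drop (t * J0 + i)) = 0 then 0 else 1) (fun _ _ => Nat.zero_le _)
        (Finset.mem_range.mpr hi))
      rw [List.drop_drop] at hw
      simp [hw]
    omega

theorem take_eq {k : ℕ} {X X' : List α} (h : ∀ i < k, (X.drop i).head? = (X'.drop i).head?) :
    X.take k = X'.take k := by
  apply List.ext_getElem?
  intro i
  rcases Nat.lt_or_ge i k with hi | hi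
  · rw [List.getElem?_take_of_lt hi, List.getElem?_take_of_lt hi, ← List.head?_drop,
      ← List.head?_drop]
    exact h i hi
  · rw [List.getElem?_eq_none (by rw [List.length_take]; omega),
      List.getElem?_eq_none (by rw [List.length_take]; omega)]

theorem rowG1 : RowG1 := by
  classical
  intro α B A _ p _ w β wB lB M _ hS hM hC G hG
  obtain ⟨-, -, n, hn⟩ := hG
  obtain ⟨J0, hJ0⟩ := hC []
  have hJ : ∀ m ∈ M, ∀ X, Near β m J0 X → ∃ i < J0, w (X.drop i) ≠ 0 := hJ0
  -- equality of `G` on near histories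
  have key : ∀ m ∈ M, ∀ X X', Near β m (n * J0 + J0) X → Near β m (n * J0 + J0) X' →
      G X = G X' := by
    intro m hm X X' hX hX'
    obtain ⟨i, hi, hw⟩ := hJ _ (sh_iter hM (n * J0) m hm) _ (near_shift (n * J0) hX)
    rw [List.drop_drop] at hw
    have hle : n * J0 + i < n * J0 + J0 := by omega
    have hw' : w (X'.drop (n * J0 + i)) ≠ 0 := by
      rw [hS.w_eq, hX'.2 _ hle, ← hX.2 _ hle, ← hS.w_eq]
      exact hw
    have ht : X.take (n * J0 + i) = X'.take (n * J0 + i) := by
      apply take_eq
      intro j hj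
      rw [hS.l_eq, hS.l_eq, hX.2 _ (by omega), hX'.2 _ (by omega)]
    have hc : n ≤ nc w (X.take (n * J0 + i)) (X.drop (n * J0 + i)) := by
      rw [nc_take w _ _ (by have := hX.1; omega), Finset.sum_range_add]
      exact le_trans (many hM hJ hm n X (near_mono (Nat.le_add_right _ _) hX)) (Nat.le_add_right _ _)
    have := hn _ _ _ hw hw' hc
    rw [List.take_append_drop, ht, List.take_append_drop] at this
    exact this
  -- the window function
  let Φ : (List α → Prop) → A := fun Q => if h : ∃ X, Q X then G h.choose else G []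
  let Q : (ℕ → B) → List α → Prop := fun z X => Near β z (n * J0 + J0) X
  refine ⟨fun z => Φ (Q z), n * J0 + J0, ?_, ?_⟩
  · intro z z' h
    have e : Q z = Q z' := by
      funext X
      apply propext
      constructor
      · rintro ⟨h1, h2⟩
        exact ⟨h1, fun i hi => (h2 i hi).trans (h i hi)⟩
      · rintro ⟨h1, h2⟩
        exact ⟨h1, fun i hi => (h2 i hi).trans (h i hi).symm⟩
    change Φ (Q z) = Φ (Q z')
    rw [e]
  · intro m hm X hX
    have hex : ∃ X, Q m X := ⟨X, hX⟩
    change G X = Φ (Q m)
    have e : Φ (Q m) = G hex.choose := dif_pos hex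
    rw [e]
    exact key m hm _ _ hX hex.choose_spec

end Vale.Agent.P329.H957
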